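import Vale.Agent.Lib.P069.Main

/-!
# P069: a reflexive Banach space with an AMUC norm and no equivalent AUC norm

The definitions used in the statement (`Cof`, `IsEquivNorm`, `aucModulus`, `amucModulus`,
`IsAUC`, `IsAMUC`, `IsReflexiveSpace`) are in `Vale/Agent/Lib/P069/Defs.lean`.
The space is the dual of the l2 sum of the spaces `Zn n`, where `Zn n` is the space of square
summable functions on the tree of finite sequences of naturals, normed by the maximum of the
l2 norm and of the supremum, over the nodes of depth at most `n`, of the absolute value of the
sum of the function along the path from the node to the root.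
-/

namespace Vale.Agent.Results.P069.Counterexample

open Vale.Agent.Lib.P069

/-- There is an infinite dimensional reflexive real Banach space which has an equivalent
asymptotically midpoint uniformly convex norm but no equivalent asymptotically uniformly
convex norm. -/
theorem result :
    ∃ (X : Type) (_ : NormedAddCommGroup X) (_ : NormedSpace ℝ X) (_ : CompleteSpace X),
      ¬ FiniteDimensional ℝ X ∧ IsReflexiveSpace X ∧
      (∃ N : Seminorm ℝ X, IsEquivNorm N ∧ IsAMUC N) ∧
      ¬ ∃ N : Seminorm ℝ X, IsEquivNorm N ∧ IsAUC N :=
  main_counterexample

end Vale.Agent.Results.P069.Counterexample
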