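import Vale.Agent.Lib.P069.Explicit

/-!
# P069: the counterexample, stated with explicit quantifiers and Mathlib notions only

`m_N(t) > 0` for all `t > 0` is written out as: for every `t > 0` there is `c > 0` such that every
`x` of norm one admits a closed finite codimensional subspace `F` with
`max (N (x + t y)) (N (x - t y)) ≥ 1 + c` for all `y` in `F` of norm one; similarly for the AUC
modulus.
-/

namespace Vale.Agent.Results.P069.ExplicitForm

/-- There is an infinite dimensional reflexive real Banach space whose norm is asymptotically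
midpoint uniformly convex and which has no equivalent asymptotically uniformly convex norm. -/
theorem result :
    ∃ (X : Type) (_ : NormedAddCommGroup X) (_ : NormedSpace ℝ X) (_ : CompleteSpace X),
      ¬ FiniteDimensional ℝ X ∧
      Function.Surjective (NormedSpace.inclusionInDoubleDual ℝ X) ∧
      (∀ t : ℝ, 0 < t → ∃ c : ℝ, 0 < c ∧ ∀ x : X, ‖x‖ = 1 → ∃ F : Submodule ℝ X,
        IsClosed (F : Set X) ∧ FiniteDimensional ℝ (X ⧸ F) ∧
          ∀ y ∈ F, ‖y‖ = 1 → 1 + c ≤ max ‖x + t • y‖ ‖x - t • y‖) ∧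
      ¬ ∃ N : Seminorm ℝ X,
        (∃ a b : ℝ, 0 < a ∧ 0 < b ∧ ∀ x : X, a * ‖x‖ ≤ N x ∧ N x ≤ b * ‖x‖) ∧
        ∀ t : ℝ, 0 < t → ∃ c : ℝ, 0 < c ∧ ∀ x : X, N x = 1 → ∃ F : Submodule ℝ X,
          IsClosed (F : Set X) ∧ FiniteDimensional ℝ (X ⧸ F) ∧
            ∀ y ∈ F, N y = 1 → 1 + c ≤ N (x + t • y) :=
  Vale.Agent.Lib.P069.main_counterexample_explicit

end Vale.Agent.Results.P069.ExplicitForm
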