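import Vale.Agent.Lib.P069.Main

/-!
# P069: a reflexive Banach space whose own norm is AMUC and which has no equivalent AUC norm

Same space as in the other hand-ins of this problem; here the statement records that the AMUC norm
is the given norm of the space (`normSeminorm ℝ X` is the norm of `X` viewed as a seminorm), with
the moduli of the problem (`Vale/Agent/Lib/P069/Defs.lean`).
-/

namespace Vale.Agent.Results.P069.GivenNormForm

open Vale.Agent.Lib.P069

/-- There is an infinite dimensional reflexive real Banach space whose given norm is
asymptotically midpoint uniformly convex and which has no equivalent asymptotically uniformly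
convex norm. -/
theorem result :
    ∃ (X : Type) (_ : NormedAddCommGroup X) (_ : NormedSpace ℝ X) (_ : CompleteSpace X),
      ¬ FiniteDimensional ℝ X ∧ IsReflexiveSpace X ∧
      IsAMUC (normSeminorm ℝ X) ∧
      ∀ N : Seminorm ℝ X, IsEquivNorm N → ¬ IsAUC N :=
  ⟨Xs, inferInstance, inferInstance, inferInstance, Xs.not_finiteDimensional, Xs.reflexive,
    Xs.isAMUC_norm, fun N hN hauc => Xs.not_auc Zs.reflexive N hN hauc⟩

end Vale.Agent.Results.P069.GivenNormForm
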