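import Vale.Agent.Lib.P069.Main

/-!
# P069: the implication asked for in Q1 is false

The statement is the literal negation of: every (infinite dimensional, real) reflexive Banach
space with an equivalent AMUC norm has an equivalent AUC norm.
-/

namespace Vale.Agent.Results.P069.NegationForm

open Vale.Agent.Lib.P069

/-- It is false that every infinite dimensional reflexive real Banach space with an equivalent
asymptotically midpoint uniformly convex norm has an equivalent asymptotically uniformly convex
norm. -/
theorem result :
    ¬ ∀ (X : Type) [NormedAddCommGroup X] [NormedSpace ℝ X] [CompleteSpace X],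
      ¬ FiniteDimensional ℝ X → IsReflexiveSpace X →
      (∃ N : Seminorm ℝ X, IsEquivNorm N ∧ IsAMUC N) →
      ∃ N : Seminorm ℝ X, IsEquivNorm N ∧ IsAUC N := by
  intro h
  obtain ⟨N, hN, hauc⟩ := h Xs Xs.not_finiteDimensional Xs.reflexive
    ⟨normSeminorm ℝ Xs, Xs.isEquivNorm_norm, Xs.isAMUC_norm⟩
  exact Xs.not_auc Zs.reflexive N hN hauc

end Vale.Agent.Results.P069.NegationForm
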